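import Vale.Agent.P154.D7.K2.Data
import Vale.Agent.P154.ApxLemma

set_option maxRecDepth 100000

namespace Vale.Agent.P154.D7.K2

open PolyR Cert InT OutT

/-- The quotient polynomial for `j = 1`. -/
noncomputable def S1 (u : ℝ) : ℝ :=
  (63 / 4194304 : ℝ) * u ^ 0 + (-1219 / 4194304 : ℝ) * u ^ 1 + (-8591 / 4194304 : ℝ) * u ^ 2 + (204127 / 16777216 : ℝ) * u ^ 3 + (562305 / 16777216 : ℝ) * u ^ 4 + (-321395 / 2097152 : ℝ) * u ^ 5 + (-651389 / 8388608 : ℝ) * u ^ 6 + (5214319 / 8388608 : ℝ) * u ^ 7 + (-3972951 / 8388608 : ℝ) * u ^ 8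

/-- Certificate polynomial. -/
def lpu1 : List ITm := [⟨(-3282470703125000000000000000000000000000),0,0⟩,⟨(-74680687573242187500000000000000000000000),1,0⟩,⟨(-349851776512218750000000000000000000000000),2,0⟩,⟨1500396329992303120781250000000000000000000,3,0⟩,⟨2984026341991298368813453125000000000000000,4,0⟩,⟨(-9851105667168331849340988052500000000000000),5,0⟩,⟨(-3603723464655544278525795275359972500000000),6,0⟩,⟨20827339724173721435044173078828720349050000,7,0⟩,⟨(-11457096739421238563774274290708704315604151),8,0⟩]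

/-- Certificate tree. -/
def tpu1 : OutT := (A (A (A (A (O l) (O l)) (O l)) (A (A (O l) (A (O l) (O l))) (A (A (O l) (A (O l) (O l))) (A (A (A (O l) (O l)) (A (O l) (O l))) (A (A (O l) (A (O l) (O l))) (A (A (O l) (O l)) (A (O l) (O l)))))))) (A (A (A (A (A (A (A (O l) (O l)) (A (O l) (O l))) (A (A (O l) (O l)) (A (O l) (O l)))) (A (A (O l) (O l)) (A (O l) (O l)))) (A (A (A (O l) (O l)) (A (O l) (O l))) (A (O l) (O l)))) (A (A (A (O l) (O l)) (A (O l) (O l))) (A (A (O l) (O l)) (A (O l) (O l))))) (A (A (A (A (O l) (O l)) (A (O l) (O l))) (A (A (A (O l) (O l)) (A (O l) (O l))) (A (A (O l) (O l)) (A (O l) (O l))))) (A (A (A (A (O l) (A (O l) (O l))) (A (A (O l) (O l)) (A (O l) (O l)))) (A (A (A (O l) (A (O l) (O l))) (A (A (O l) (O l)) (A (O l) (O l)))) (A (A (A (O l) (O l)) (A (O l) (A (O l) (O l)))) (A (A (A (O l) (O l)) (A (O l) (O l))) (A (A (O l) (O l)) (A (O l) (O l))))))) (A (A (A (A (A (A (O l) (O l)) (A (O l) (O l))) (A (A (O l) (O l)) (A (O l) (O l)))) (A (A (A (O l) (O l)) (O l)) (A (O l) (O l))))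 (A (A (A (O l) (O l)) (A (O l) (O l))) (A (O l) (O l)))) (A (A (A (O l) (O l)) (A (O l) (O l))) (A (O l) (O l))))))))

theorem hpu1 (x : ℝ) (h0 : 0 ≤ x) (h1 : x ≤ 1) : evalIL lpu1 x 0 ≤ 0 :=
  uni_le 8 65536 lpu1 (by norm_num) (by norm_num) (by decide +kernel)
    (chkOut_sound (uniPb 8 65536 lpu1) tpu1 0 32768 0 32768 (by decide +kernel)) x h0 h1

/-- Certificate polynomial. -/
def lpl1 : List ITm := [⟨(-13126220703125000000000000000000000000000),0,0⟩,⟨62833940551757812500000000000000000000000,1,0⟩,⟨349851776512218750000000000000000000000000,2,0⟩,⟨(-1500396329992303120781250000000000000000000),3,0⟩,⟨(-2984026341991298368813453125000000000000000),4,0⟩,⟨9851105667168331849340988052500000000000000,5,0⟩,⟨3603723464655544278525795275359972500000000,6,0⟩,⟨(-20827339724173721435044173078828720349050000),7,0⟩,⟨11457096739421238563774274290708704315604151,8,0⟩]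

/-- Certificate tree. -/
def tpl1 : OutT := (A (A (A (A (O l) (O l)) (A (A (O l) (A (O l) (O l))) (A (A (A (O l) (O l)) (A (O l) (O l))) (A (O l) (O l))))) (A (A (A (A (O l) (O l)) (O l)) (A (O l) (O l))) (A (A (O l) (O l)) (A (O l) (O l))))) (A (A (A (A (O l) (O l)) (A (A (O l) (O l)) (A (O l) (O l)))) (A (A (A (O l) (O l)) (A (A (O l) (O l)) (A (O l) (O l)))) (A (A (A (O l) (O l)) (A (O l) (A (O l) (O l)))) (A (A (A (O l) (O l)) (A (O l) (O l))) (A (A (A (O l) (O l)) (A (O l) (O l))) (A (A (O l) (O l)) (A (O l) (O l)))))))) (A (A (A (A (A (A (A (O l) (O l)) (A (O l) (O l))) (A (A (O l) (O l)) (A (O l) (O l)))) (A (A (A (O l) (O l)) (A (O l) (O l))) (A (A (O l) (O l)) (A (O l) (O l))))) (A (A (A (A (O l) (O l)) (A (O l) (O l))) (A (O l) (O l))) (A (A (O l) (O l)) (A (O l) (O l))))) (A (A (A (A (O l) (O l)) (A (O l) (O l))) (A (O l) (O l))) (A (A (O l) (O l)) (A (O l) (O l))))) (A (A (A (A (O l) (O l)) (A (O l) (O l))) (A (A (O l) (O l)) (A (O l) (O l)))) (A (A (A (O l) (O l)) (A (O l) (O l))) (A (A (O l)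 (O l)) (A (A (O l) (O l)) (A (O l) (A (O l) (A (O l) (O l)))))))))))

theorem hpl1 (x : ℝ) (h0 : 0 ≤ x) (h1 : x ≤ 1) : evalIL lpl1 x 0 ≤ 0 :=
  uni_le 8 65536 lpl1 (by norm_num) (by norm_num) (by decide +kernel)
    (chkOut_sound (uniPb 8 65536 lpl1) tpl1 0 32768 0 32768 (by decide +kernel)) x h0 h1

/-- Certificate polynomial. -/
def lnu1 : List ITm := [⟨(-840312500000000000000000000000000000000000),0,0⟩,⟨9559128009375000000000000000000000000000000,1,0⟩,⟨(-22390513696782000000000000000000000000000000),2,0⟩,⟨(-48012682559753699865000000000000000000000000),3,0⟩,⟨47744421471860773901015250000000000000000000,4,0⟩,⟨78808845337346654794727904420000000000000000,5,0⟩,⟨(-14414893858622177114103181101439890000000000),6,0⟩,⟨(-41654679448347442870088346157657440698100000),7,0⟩,⟨(-11457096739421238563774274290708704315604151),8,0⟩]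

/-- Certificate tree. -/
def tnu1 : OutT := (A (A (A (A (O l) (O l)) (A (A (O l) (O l)) (A (O l) (O l)))) (A (A (O l) (O l)) (O l))) (A (A (O l) (A (O l) (O l))) (A (A (A (O l) (O l)) (A (O l) (A (O l) (O l)))) (A (A (A (A (O l) (O l)) (A (O l) (O l))) (A (A (O l) (O l)) (A (O l) (O l)))) (A (A (O l) (O l)) (O l))))))

theorem hnu1 (x : ℝ) (h0 : 0 ≤ x) (h1 : x ≤ 1) : evalIL lnu1 x 0 ≤ 0 :=
  uni_le 8 65536 lnu1 (by norm_num) (by norm_num) (by decide +kernel)
    (chkOut_sound (uniPb 8 65536 lnu1) tnu1 0 32768 0 32768 (by decide +kernel)) x h0 h1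

/-- Certificate polynomial. -/
def lnl1 : List ITm := [⟨(-3360312500000000000000000000000000000000000),0,0⟩,⟨(-8042744390625000000000000000000000000000000),1,0⟩,⟨22390513696782000000000000000000000000000000,2,0⟩,⟨48012682559753699865000000000000000000000000,3,0⟩,⟨(-47744421471860773901015250000000000000000000),4,0⟩,⟨(-78808845337346654794727904420000000000000000),5,0⟩,⟨14414893858622177114103181101439890000000000,6,0⟩,⟨41654679448347442870088346157657440698100000,7,0⟩,⟨11457096739421238563774274290708704315604151,8,0⟩]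

/-- Certificate tree. -/
def tnl1 : OutT := (A (A (O l) (A (O l) (A (O l) (O l)))) (A (A (A (A (O l) (O l)) (A (A (O l) (O l)) (A (A (O l) (O l)) (A (O l) (O l))))) (A (A (A (O l) (O l)) (A (O l) (O l))) (A (O l) (O l)))) (A (A (A (O l) (O l)) (O l)) (A (O l) (A (O l) (A (O l) (A (O l) (A (O l) (O l)))))))))

theorem hnl1 (x : ℝ) (h0 : 0 ≤ x) (h1 : x ≤ 1) : evalIL lnl1 x 0 ≤ 0 :=
  uni_le 8 65536 lnl1 (by norm_num) (by norm_num) (by decide +kernel)
    (chkOut_sound (uniPb 8 65536 lnl1) tnl1 0 32768 0 32768 (by decide +kernel)) x h0 h1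

theorem apx1 (u : ℝ) (h0 : -(36099 / 100000 : ℝ) ≤ u) (h1 : u ≤ 2 * (36099 / 100000 : ℝ)) :
    |((1 + u)⁻¹) ^ 1 - evalZ Ax.p1 (3 * u) / Ax.D1| ≤ Ax.e1 * |u| ^ Ax.m1 := by
  have hu : 0 < 1 + u := by norm_num at h0 ⊢; linarith
  refine apx_of_S 1 2 _ (S1 u) _ u hu ?_ ?_ ?_
  · simp only [Ax, evalZ_cons, evalZ_nil, S1]
    push_cast
    ring
  · rcases le_total 0 u with hs | hs
    · have hx := hpu1 (u / (2 * (36099 / 100000 : ℝ))) (by positivity) (by rw [div_le_one (by norm_num)]; exact h1)
      have e : evalIL lpu1 (u / (2 * (36099 / 100000 : ℝ))) 0 = 327680000000000000000000000000000000000000000 * (S1 u - Ax.e1 * (1 + u) ^ 1) := by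
        simp only [lpu1, evalIL, List.map_cons, List.map_nil, List.sum_cons, List.sum_nil, S1, Ax]
        push_cast
        ring
      rw [e] at hx
      have := cmul_nonpos (by norm_num) hx
      simp only [Ax] at this ⊢
      linarith
    · have hx := hnu1 (-u / (36099 / 100000 : ℝ)) (by apply div_nonneg <;> [linarith; norm_num]) (by rw [div_le_one (by norm_num)]; linarith)
      have e : evalIL lnu1 (-u / (36099 / 100000 : ℝ)) 0 = 83886080000000000000000000000000000000000000000 * (S1 u - Ax.e1 * (1 + u) ^ 1) := by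
        simp only [lnu1, evalIL, List.map_cons, List.map_nil, List.sum_cons, List.sum_nil, S1, Ax]
        push_cast
        ring
      rw [e] at hx
      have := cmul_nonpos (by norm_num) hx
      simp only [Ax] at this ⊢
      linarith
  · rcases le_total 0 u with hs | hs
    · have hx := hpl1 (u / (2 * (36099 / 100000 : ℝ))) (by positivity) (by rw [div_le_one (by norm_num)]; exact h1)
      have e : evalIL lpl1 (u / (2 * (36099 / 100000 : ℝ))) 0 = 327680000000000000000000000000000000000000000 * (-S1 u - Ax.e1 * (1 + u) ^ 1) := by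
        simp only [lpl1, evalIL, List.map_cons, List.map_nil, List.sum_cons, List.sum_nil, S1, Ax]
        push_cast
        ring
      rw [e] at hx
      have := cmul_nonpos (by norm_num) hx
      simp only [Ax] at this ⊢
      linarith
    · have hx := hnl1 (-u / (36099 / 100000 : ℝ)) (by apply div_nonneg <;> [linarith; norm_num]) (by rw [div_le_one (by norm_num)]; linarith)
      have e : evalIL lnl1 (-u / (36099 / 100000 : ℝ)) 0 = 83886080000000000000000000000000000000000000000 * (-S1 u - Ax.e1 * (1 + u) ^ 1) := by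
        simp only [lnl1, evalIL, List.map_cons, List.map_nil, List.sum_cons, List.sum_nil, S1, Ax]
        push_cast
        ring
      rw [e] at hx
      have := cmul_nonpos (by norm_num) hx
      simp only [Ax] at this ⊢
      linarith

/-- The quotient polynomial for `j = 2`. -/
noncomputable def S2 (u : ℝ) : ℝ :=
  (2569 / 16777216 : ℝ) * u ^ 0 + (-52221 / 16777216 : ℝ) * u ^ 1 + (-406961 / 16777216 : ℝ) * u ^ 2 + (242049 / 2097152 : ℝ) * u ^ 3 + (7903921 / 16777216 : ℝ) * u ^ 4 + (-22749179 / 16777216 : ℝ) * u ^ 5 + (-9605501 / 4194304 : ℝ) * u ^ 6 + (100659807 / 16777216 : ℝ) * u ^ 7 + (15546119 / 16777216 : ℝ) * u ^ 8 + (-78393939 / 16777216 : ℝ) * u ^ 9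

/-- Certificate polynomial. -/
def lpu2 : List ITm := [⟨(-3860046386718750000000000000000000000000000000),0,0⟩,⟨(-86456664338378906250000000000000000000000000000),1,0⟩,⟨(-418944899915566479492187500000000000000000000000),2,0⟩,⟨1423307769293849331375000000000000000000000000000,3,0⟩,⟨4194433353610265780053600312500000000000000000000,4,0⟩,⟨(-8716087920251046390425301002006250000000000000000),5,0⟩,⟨(-10628232697657557994661808855619450500000000000000),6,0⟩,⟨20103066162223293531938777610168219247732500000000,7,0⟩,⟨2241575459973638812054615791410441654404945950000,8,0⟩,⟨(-8160918287693497962970817990286340088455677547161),9,0⟩]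

/-- Certificate tree. -/
def tpu2 : OutT := (A (A (A (A (O l) (O l)) (O l)) (A (A (O l) (A (O l) (O l))) (A (A (O l) (A (O l) (O l))) (A (A (O l) (A (O l) (O l))) (A (A (O l) (A (O l) (O l))) (A (A (O l) (O l)) (A (O l) (O l)))))))) (A (A (A (A (A (A (A (O l) (O l)) (A (O l) (O l))) (A (A (O l) (O l)) (O l))) (A (A (O l) (O l)) (A (O l) (O l)))) (A (A (A (O l) (O l)) (O l)) (A (O l) (O l)))) (A (A (A (O l) (O l)) (A (O l) (O l))) (A (A (O l) (O l)) (A (O l) (O l))))) (A (A (A (A (O l) (O l)) (A (O l) (O l))) (A (A (O l) (O l)) (A (A (O l) (O l)) (A (O l) (O l))))) (A (A (A (A (O l) (O l)) (A (A (O l) (O l)) (A (O l) (O l)))) (A (A (A (O l) (O l)) (A (O l) (A (O l) (O l)))) (A (A (A (O l) (O l)) (A (O l) (O l))) (A (A (A (O l) (O l)) (A (O l) (O l))) (A (A (O l) (O l)) (A (O l) (O l))))))) (A (A (A (A (A (A (O l) (O l)) (A (O l) (O l))) (A (A (O l) (O l)) (O l))) (A (A (O l) (O l)) (A (O l) (O l)))) (A (A (A (O l) (O l)) (O l)) (A (O l) (O l)))) (A (A (A (O l) (O l)) (O l)) (A (O l) (O l))))))))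

theorem hpu2 (x : ℝ) (h0 : 0 ≤ x) (h1 : x ≤ 1) : evalIL lpu2 x 0 ≤ 0 :=
  uni_le 9 65536 lpu2 (by norm_num) (by norm_num) (by decide +kernel)
    (chkOut_sound (uniPb 9 65536 lpu2) tpu2 0 32768 0 32768 (by decide +kernel)) x h0 h1

/-- Certificate polynomial. -/
def lpl2 : List ITm := [⟨(-13895202636718750000000000000000000000000000000),0,0⟩,⟨60818794958496093750000000000000000000000000000,1,0⟩,⟨409689885448122583007812500000000000000000000000,2,0⟩,⟨(-1423307769293849331375000000000000000000000000000),3,0⟩,⟨(-4194433353610265780053600312500000000000000000000),4,0⟩,⟨8716087920251046390425301002006250000000000000000,5,0⟩,⟨10628232697657557994661808855619450500000000000000,6,0⟩,⟨(-20103066162223293531938777610168219247732500000000),7,0⟩,⟨(-2241575459973638812054615791410441654404945950000),8,0⟩,⟨8160918287693497962970817990286340088455677547161,9,0⟩]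

/-- Certificate tree. -/
def tpl2 : OutT := (A (A (A (A (O l) (O l)) (A (A (O l) (A (O l) (O l))) (A (A (A (O l) (O l)) (A (O l) (O l))) (A (O l) (O l))))) (A (A (A (O l) (O l)) (A (O l) (O l))) (A (A (O l) (O l)) (A (O l) (O l))))) (A (A (A (A (O l) (O l)) (A (O l) (A (O l) (O l)))) (A (A (A (O l) (O l)) (A (O l) (A (O l) (O l)))) (A (A (A (O l) (O l)) (A (O l) (O l))) (A (A (A (O l) (O l)) (A (O l) (O l))) (A (A (O l) (A (O l) (O l))) (A (A (O l) (O l)) (A (O l) (O l)))))))) (A (A (A (A (A (A (A (O l) (O l)) (A (O l) (O l))) (A (A (O l) (O l)) (A (O l) (O l)))) (A (A (A (O l) (O l)) (A (O l) (O l))) (A (A (O l) (O l)) (O l)))) (A (A (A (O l) (O l)) (A (O l) (O l))) (A (A (O l) (O l)) (A (O l) (O l))))) (A (A (A (O l) (O l)) (A (O l) (O l))) (A (A (O l) (O l)) (A (O l) (O l))))) (A (A (A (A (O l) (O l)) (A (O l) (O l))) (A (O l) (O l))) (A (A (A (O l) (O l)) (A (O l) (O l))) (A (A (O l) (O l)) (A (A (O l) (O l)) (A (O l) (A (O l) (A (O l) (O l)))))))))))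

theorem hpl2 (x : ℝ) (h0 : 0 ≤ x) (h1 : x ≤ 1) : evalIL lpl2 x 0 ≤ 0 :=
  uni_le 9 65536 lpl2 (by norm_num) (by norm_num) (by decide +kernel)
    (chkOut_sound (uniPb 9 65536 lpl2) tpl2 0 32768 0 32768 (by decide +kernel)) x h0 h1

/-- Certificate polynomial. -/
def lnu2 : List ITm := [⟨(-1976343750000000000000000000000000000000000000000),0,0⟩,⟨22132906070625000000000000000000000000000000000000,1,0⟩,⟨(-53624947189192509375000000000000000000000000000000),2,0⟩,⟨(-91091697234806357208000000000000000000000000000000),3,0⟩,⟨134221867315528504961715210000000000000000000000000,4,0⟩,⟨139457406724016742246804816032100000000000000000000,5,0⟩,⟨(-85025861581260463957294470844955604000000000000000),6,0⟩,⟨(-80412264648893174127755110440672876990930000000000),7,0⟩,⟨4483150919947277624109231582820883308809891900000,8,0⟩,⟨8160918287693497962970817990286340088455677547161,9,0⟩]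

/-- Certificate tree. -/
def tnu2 : OutT := (A (A (A (A (O l) (O l)) (A (A (O l) (O l)) (A (O l) (O l)))) (A (A (O l) (O l)) (O l))) (A (A (O l) (A (O l) (O l))) (A (A (A (O l) (O l)) (A (O l) (A (O l) (A (O l) (O l))))) (A (A (A (A (O l) (O l)) (A (A (O l) (O l)) (A (O l) (O l)))) (A (A (A (O l) (O l)) (O l)) (A (O l) (O l)))) (A (A (O l) (O l)) (O l))))))

theorem hnu2 (x : ℝ) (h0 : 0 ≤ x) (h1 : x ≤ 1) : evalIL lnu2 x 0 ≤ 0 :=
  uni_le 9 65536 lnu2 (by norm_num) (by norm_num) (by decide +kernel)
    (chkOut_sound (uniPb 9 65536 lnu2) tnu2 0 32768 0 32768 (by decide +kernel)) x h0 h1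

/-- Certificate polynomial. -/
def lnl2 : List ITm := [⟨(-7114343750000000000000000000000000000000000000000),0,0⟩,⟨(-15569611509375000000000000000000000000000000000000),1,0⟩,⟨52440305337359690625000000000000000000000000000000,2,0⟩,⟨91091697234806357208000000000000000000000000000000,3,0⟩,⟨(-134221867315528504961715210000000000000000000000000),4,0⟩,⟨(-139457406724016742246804816032100000000000000000000),5,0⟩,⟨85025861581260463957294470844955604000000000000000,6,0⟩,⟨80412264648893174127755110440672876990930000000000,7,0⟩,⟨(-4483150919947277624109231582820883308809891900000),8,0⟩,⟨(-8160918287693497962970817990286340088455677547161),9,0⟩]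

/-- Certificate tree. -/
def tnl2 : OutT := (A (A (O l) (A (O l) (A (O l) (O l)))) (A (A (A (A (O l) (O l)) (A (A (O l) (O l)) (A (A (O l) (O l)) (A (O l) (O l))))) (A (A (A (A (O l) (O l)) (O l)) (A (O l) (O l))) (A (O l) (O l)))) (A (A (A (O l) (O l)) (A (O l) (O l))) (A (A (O l) (O l)) (A (O l) (A (O l) (A (O l) (A (O l) (O l)))))))))

theorem hnl2 (x : ℝ) (h0 : 0 ≤ x) (h1 : x ≤ 1) : evalIL lnl2 x 0 ≤ 0 :=
  uni_le 9 65536 lnl2 (by norm_num) (by norm_num) (by decide +kernel)
    (chkOut_sound (uniPb 9 65536 lnl2) tnl2 0 32768 0 32768 (by decide +kernel)) x h0 h1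

theorem apx2 (u : ℝ) (h0 : -(36099 / 100000 : ℝ) ≤ u) (h1 : u ≤ 2 * (36099 / 100000 : ℝ)) :
    |((1 + u)⁻¹) ^ 2 - evalZ Ax.p2 (3 * u) / Ax.D2| ≤ Ax.e2 * |u| ^ Ax.m2 := by
  have hu : 0 < 1 + u := by norm_num at h0 ⊢; linarith
  refine apx_of_S 2 2 _ (S2 u) _ u hu ?_ ?_ ?_
  · simp only [Ax, evalZ_cons, evalZ_nil, S2]
    push_cast
    ring
  · rcases le_total 0 u with hs | hs
    · have hx := hpu2 (u / (2 * (36099 / 100000 : ℝ))) (by positivity) (by rw [div_le_one (by norm_num)]; exact h1)
      have e : evalIL lpu2 (u / (2 * (36099 / 100000 : ℝ))) 0 = 32768000000000000000000000000000000000000000000000 * (S2 u - Ax.e2 * (1 + u) ^ 2) := by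
        simp only [lpu2, evalIL, List.map_cons, List.map_nil, List.sum_cons, List.sum_nil, S2, Ax]
        push_cast
        ring
      rw [e] at hx
      have := cmul_nonpos (by norm_num) hx
      simp only [Ax] at this ⊢
      linarith
    · have hx := hnu2 (-u / (36099 / 100000 : ℝ)) (by apply div_nonneg <;> [linarith; norm_num]) (by rw [div_le_one (by norm_num)]; linarith)
      have e : evalIL lnu2 (-u / (36099 / 100000 : ℝ)) 0 = 16777216000000000000000000000000000000000000000000000 * (S2 u - Ax.e2 * (1 + u) ^ 2) := by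
        simp only [lnu2, evalIL, List.map_cons, List.map_nil, List.sum_cons, List.sum_nil, S2, Ax]
        push_cast
        ring
      rw [e] at hx
      have := cmul_nonpos (by norm_num) hx
      simp only [Ax] at this ⊢
      linarith
  · rcases le_total 0 u with hs | hs
    · have hx := hpl2 (u / (2 * (36099 / 100000 : ℝ))) (by positivity) (by rw [div_le_one (by norm_num)]; exact h1)
      have e : evalIL lpl2 (u / (2 * (36099 / 100000 : ℝ))) 0 = 32768000000000000000000000000000000000000000000000 * (-S2 u - Ax.e2 * (1 + u) ^ 2) := by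
        simp only [lpl2, evalIL, List.map_cons, List.map_nil, List.sum_cons, List.sum_nil, S2, Ax]
        push_cast
        ring
      rw [e] at hx
      have := cmul_nonpos (by norm_num) hx
      simp only [Ax] at this ⊢
      linarith
    · have hx := hnl2 (-u / (36099 / 100000 : ℝ)) (by apply div_nonneg <;> [linarith; norm_num]) (by rw [div_le_one (by norm_num)]; linarith)
      have e : evalIL lnl2 (-u / (36099 / 100000 : ℝ)) 0 = 16777216000000000000000000000000000000000000000000000 * (-S2 u - Ax.e2 * (1 + u) ^ 2) := by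
        simp only [lnl2, evalIL, List.map_cons, List.map_nil, List.sum_cons, List.sum_nil, S2, Ax]
        push_cast
        ring
      rw [e] at hx
      have := cmul_nonpos (by norm_num) hx
      simp only [Ax] at this ⊢
      linarith

/-- The quotient polynomial for `j = 3`. -/
noncomputable def S3 (u : ℝ) : ℝ :=
  (89605 / 16777216 : ℝ) * u ^ 0 + (273271 / 8388608 : ℝ) * u ^ 1 + (-7523911 / 16777216 : ℝ) * u ^ 2 + (-13034913 / 8388608 : ℝ) * u ^ 3 + (49121619 / 8388608 : ℝ) * u ^ 4 + (220112929 / 16777216 : ℝ) * u ^ 5 + (-427320989 / 16777216 : ℝ) * u ^ 6 + (-238246709 / 8388608 : ℝ) * u ^ 7 + (433476593 / 16777216 : ℝ) * u ^ 8 + (395645525 / 16777216 : ℝ) * u ^ 9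

/-- Certificate polynomial. -/
def lpu3 : List ITm := [⟨(-319925537109375000000000000000000000000000000),0,0⟩,⟨14972165127465820312500000000000000000000000000,1,0⟩,⟨(-317843907955455133300781250000000000000000000000),2,0⟩,⟨(-769239903793016709574541015625000000000000000000),3,0⟩,⟨2085419195024198750331950475000000000000000000000,4,0⟩,⟨3373350117906191227932033167892750000000000000000,5,0⟩,⟨(-4728193675358698797286826455707267945000000000000),6,0⟩,⟨(-3806476087488591991538708318886773285518200000000),7,0⟩,⟨2500097917278983448054146975678230465048516386000,8,0⟩,⟨1647490018541660492730704522167859902855802657079,9,0⟩]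

/-- Certificate tree. -/
def tpu3 : OutT := (A (A (A (A (A (O l) (A (O l) (O l))) (A (O l) (O l))) (A (O l) (O l))) (A (A (O l) (O l)) (A (O l) (O l)))) (A (A (A (A (O l) (O l)) (A (O l) (A (O l) (O l)))) (A (A (A (O l) (A (O l) (O l))) (A (A (O l) (A (O l) (O l))) (A (A (O l) (O l)) (A (O l) (O l))))) (A (A (A (A (O l) (O l)) (A (O l) (O l))) (A (O l) (O l))) (A (A (O l) (O l)) (A (O l) (O l)))))) (A (A (A (A (O l) (O l)) (A (O l) (O l))) (A (A (O l) (O l)) (O l))) (A (A (O l) (O l)) (A (A (O l) (O l)) (A (O l) (A (O l) (A (O l) (A (O l) (O l))))))))))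

theorem hpu3 (x : ℝ) (h0 : 0 ≤ x) (h1 : x ≤ 1) : evalIL lpu3 x 0 ≤ 0 :=
  uni_le 9 65536 lpu3 (by norm_num) (by norm_num) (by decide +kernel)
    (chkOut_sound (uniPb 9 65536 lpu3) tpu3 0 32768 0 32768 (by decide +kernel)) x h0 h1

/-- Certificate polynomial. -/
def lpl3 : List ITm := [⟨(-14320706787109375000000000000000000000000000000),0,0⟩,⟨(-46682896303784179687500000000000000000000000000),1,0⟩,⟨294949394260776804199218750000000000000000000000,2,0⟩,⟨763730110127255422892958984375000000000000000000,3,0⟩,⟨(-2085419195024198750331950475000000000000000000000),4,0⟩,⟨(-3373350117906191227932033167892750000000000000000),5,0⟩,⟨4728193675358698797286826455707267945000000000000,6,0⟩,⟨3806476087488591991538708318886773285518200000000,7,0⟩,⟨(-2500097917278983448054146975678230465048516386000),8,0⟩,⟨(-1647490018541660492730704522167859902855802657079),9,0⟩]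

/-- Certificate tree. -/
def tpl3 : OutT := (A (A (A (O l) (A (O l) (O l))) (A (A (A (O l) (O l)) (A (A (O l) (O l)) (A (A (O l) (O l)) (A (O l) (O l))))) (A (A (A (A (O l) (O l)) (O l)) (A (O l) (O l))) (A (O l) (O l))))) (A (A (A (A (O l) (O l)) (A (O l) (O l))) (A (A (O l) (O l)) (A (O l) (O l)))) (A (A (A (O l) (O l)) (A (A (O l) (O l)) (A (O l) (A (O l) (O l))))) (A (A (A (A (O l) (O l)) (A (A (O l) (O l)) (A (O l) (O l)))) (A (A (A (O l) (A (O l) (O l))) (A (A (O l) (O l)) (A (O l) (O l)))) (A (A (O l) (O l)) (A (O l) (O l))))) (A (A (A (O l) (O l)) (A (O l) (O l))) (A (O l) (O l)))))))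

theorem hpl3 (x : ℝ) (h0 : 0 ≤ x) (h1 : x ≤ 1) : evalIL lpl3 x 0 ≤ 0 :=
  uni_le 9 65536 lpl3 (by norm_num) (by norm_num) (by decide +kernel)
    (chkOut_sound (uniPb 9 65536 lpl3) tpl3 0 32768 0 32768 (by decide +kernel)) x h0 h1

/-- Certificate polynomial. -/
def lnu3 : List ITm := [⟨(-163801875000000000000000000000000000000000000000),0,0⟩,⟨(-3832874272631250000000000000000000000000000000000),1,0⟩,⟨(-40684020218298257062500000000000000000000000000000),2,0⟩,⟨49231353842753069412770625000000000000000000000000,3,0⟩,⟨66733414240774360010622415200000000000000000000000,4,0⟩,⟨(-53973601886499059646912530686284000000000000000000),5,0⟩,⟨(-37825549402869590378294611645658143560000000000000),6,0⟩,⟨15225904349954367966154833275547093142072800000000,7,0⟩,⟨5000195834557966896108293951356460930097032772000,8,0⟩,⟨(-1647490018541660492730704522167859902855802657079),9,0⟩]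

/-- Certificate tree. -/
def tnu3 : OutT := (A (A (A (A (O l) (O l)) (O l)) (A (O l) (O l))) (A (A (O l) (A (O l) (O l))) (A (A (A (O l) (O l)) (A (A (O l) (O l)) (A (A (O l) (O l)) (A (O l) (O l))))) (A (A (A (A (O l) (O l)) (A (O l) (O l))) (A (A (O l) (O l)) (O l))) (A (A (O l) (O l)) (O l))))))

theorem hnu3 (x : ℝ) (h0 : 0 ≤ x) (h1 : x ≤ 1) : evalIL lnu3 x 0 ≤ 0 :=
  uni_le 9 65536 lnu3 (by norm_num) (by norm_num) (by decide +kernel)
    (chkOut_sound (uniPb 9 65536 lnu3) tnu3 0 32768 0 32768 (by decide +kernel)) x h0 h1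

/-- Certificate polynomial. -/
def lnl3 : List ITm := [⟨(-7332201875000000000000000000000000000000000000000),0,0⟩,⟨11950821453768750000000000000000000000000000000000,1,0⟩,⟨37753522465379430937500000000000000000000000000000,2,0⟩,⟨(-48878727048144347065149375000000000000000000000000),3,0⟩,⟨(-66733414240774360010622415200000000000000000000000),4,0⟩,⟨53973601886499059646912530686284000000000000000000,5,0⟩,⟨37825549402869590378294611645658143560000000000000,6,0⟩,⟨(-15225904349954367966154833275547093142072800000000),7,0⟩,⟨(-5000195834557966896108293951356460930097032772000),8,0⟩,⟨1647490018541660492730704522167859902855802657079,9,0⟩]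

/-- Certificate tree. -/
def tnl3 : OutT := (A (A (O l) (A (O l) (A (O l) (A (O l) (A (O l) (O l)))))) (A (A (A (A (A (O l) (O l)) (A (O l) (O l))) (A (A (O l) (O l)) (O l))) (A (A (O l) (O l)) (O l))) (A (A (O l) (O l)) (A (O l) (A (O l) (A (O l) (A (O l) (A (O l) (O l)))))))))

theorem hnl3 (x : ℝ) (h0 : 0 ≤ x) (h1 : x ≤ 1) : evalIL lnl3 x 0 ≤ 0 :=
  uni_le 9 65536 lnl3 (by norm_num) (by norm_num) (by decide +kernel)
    (chkOut_sound (uniPb 9 65536 lnl3) tnl3 0 32768 0 32768 (by decide +kernel)) x h0 h1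

theorem apx3 (u : ℝ) (h0 : -(36099 / 100000 : ℝ) ≤ u) (h1 : u ≤ 2 * (36099 / 100000 : ℝ)) :
    |((1 + u)⁻¹) ^ 3 - evalZ Ax.p3 (3 * u) / Ax.D3| ≤ Ax.e3 * |u| ^ Ax.m3 := by
  have hu : 0 < 1 + u := by norm_num at h0 ⊢; linarith
  refine apx_of_S 3 2 _ (S3 u) _ u hu ?_ ?_ ?_
  · simp only [Ax, evalZ_cons, evalZ_nil, S3]
    push_cast
    ring
  · rcases le_total 0 u with hs | hs
    · have hx := hpu3 (u / (2 * (36099 / 100000 : ℝ))) (by positivity) (by rw [div_le_one (by norm_num)]; exact h1)
      have e : evalIL lpu3 (u / (2 * (36099 / 100000 : ℝ))) 0 = 1310720000000000000000000000000000000000000000000 * (S3 u - Ax.e3 * (1 + u) ^ 3) := by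
        simp only [lpu3, evalIL, List.map_cons, List.map_nil, List.sum_cons, List.sum_nil, S3, Ax]
        push_cast
        ring
      rw [e] at hx
      have := cmul_nonpos (by norm_num) hx
      simp only [Ax] at this ⊢
      linarith
    · have hx := hnu3 (-u / (36099 / 100000 : ℝ)) (by apply div_nonneg <;> [linarith; norm_num]) (by rw [div_le_one (by norm_num)]; linarith)
      have e : evalIL lnu3 (-u / (36099 / 100000 : ℝ)) 0 = 671088640000000000000000000000000000000000000000000 * (S3 u - Ax.e3 * (1 + u) ^ 3) := by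
        simp only [lnu3, evalIL, List.map_cons, List.map_nil, List.sum_cons, List.sum_nil, S3, Ax]
        push_cast
        ring
      rw [e] at hx
      have := cmul_nonpos (by norm_num) hx
      simp only [Ax] at this ⊢
      linarith
  · rcases le_total 0 u with hs | hs
    · have hx := hpl3 (u / (2 * (36099 / 100000 : ℝ))) (by positivity) (by rw [div_le_one (by norm_num)]; exact h1)
      have e : evalIL lpl3 (u / (2 * (36099 / 100000 : ℝ))) 0 = 1310720000000000000000000000000000000000000000000 * (-S3 u - Ax.e3 * (1 + u) ^ 3) := by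
        simp only [lpl3, evalIL, List.map_cons, List.map_nil, List.sum_cons, List.sum_nil, S3, Ax]
        push_cast
        ring
      rw [e] at hx
      have := cmul_nonpos (by norm_num) hx
      simp only [Ax] at this ⊢
      linarith
    · have hx := hnl3 (-u / (36099 / 100000 : ℝ)) (by apply div_nonneg <;> [linarith; norm_num]) (by rw [div_le_one (by norm_num)]; linarith)
      have e : evalIL lnl3 (-u / (36099 / 100000 : ℝ)) 0 = 671088640000000000000000000000000000000000000000000 * (-S3 u - Ax.e3 * (1 + u) ^ 3) := by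
        simp only [lnl3, evalIL, List.map_cons, List.map_nil, List.sum_cons, List.sum_nil, S3, Ax]
        push_cast
        ring
      rw [e] at hx
      have := cmul_nonpos (by norm_num) hx
      simp only [Ax] at this ⊢
      linarith

/-- The quotient polynomial for `j = 4`. -/
noncomputable def S4 (u : ℝ) : ℝ :=
  (210719 / 16777216 : ℝ) * u ^ 0 + (3580689 / 4194304 : ℝ) * u ^ 1 + (33529 / 16384 : ℝ) * u ^ 2 + (-35850725 / 2097152 : ℝ) * u ^ 3 + (-82976663 / 2097152 : ℝ) * u ^ 4 + (302184457 / 4194304 : ℝ) * u ^ 5 + (637855573 / 4194304 : ℝ) * u ^ 6 + (-85487865 / 2097152 : ℝ) * u ^ 7 + (-2901089355 / 16777216 : ℝ) * u ^ 8 + (-151813825 / 2097152 : ℝ) * u ^ 9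

/-- Certificate polynomial. -/
def lpu4 : List ITm := [⟨(-9521335906982421875000000000000000000000000000),0,0⟩,⟨67544195974694824218750000000000000000000000000,1,0⟩,⟨138557517479141667846679687500000000000000000000,2,0⟩,⟨(-1071486065639683254536411132812500000000000000000),3,0⟩,⟨(-1764500188210981415046978049291992187500000000000),4,0⟩,⟨2315570417152479882612449075505375000000000000000,5,0⟩,⟨3528851570231317144449695559251734432500000000000,6,0⟩,⟨(-682921319792402549436144024636599334763500000000),7,0⟩,⟨(-2091522233091986539620110829936311667060691338750),8,0⟩,⟨(-632161229080324872252334835469452368800753717147),9,0⟩]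

/-- Certificate tree. -/
def tpu4 : OutT := (A (A (A (A (O l) (O l)) (A (A (O l) (O l)) (A (A (O l) (O l)) (O l)))) (A (A (O l) (O l)) (A (O l) (O l)))) (A (A (A (O l) (O l)) (A (O l) (O l))) (A (A (A (O l) (O l)) (A (A (O l) (O l)) (A (A (O l) (O l)) (A (O l) (O l))))) (A (A (A (A (A (O l) (O l)) (A (O l) (O l))) (A (O l) (O l))) (A (A (O l) (O l)) (O l))) (A (A (O l) (O l)) (O l))))))

theorem hpu4 (x : ℝ) (h0 : 0 ≤ x) (h1 : x ≤ 1) : evalIL lpu4 x 0 ≤ 0 :=
  uni_le 9 65536 lpu4 (by norm_num) (by norm_num) (by decide +kernel)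
    (chkOut_sound (uniPb 9 65536 lpu4) tpu4 0 32768 0 32768 (by decide +kernel)) x h0 h1

/-- Certificate polynomial. -/
def lpl4 : List ITm := [⟨(-13636941375732421875000000000000000000000000000),0,0⟩,⟨(-134423448104992675781250000000000000000000000000),1,0⟩,⟨(-210985741158690332153320312500000000000000000000),2,0⟩,⟨1036624913018242891432338867187500000000000000000,3,0⟩,⟨1758207924468574536708508525708007812500000000000,4,0⟩,⟨(-2315570417152479882612449075505375000000000000000),5,0⟩,⟨(-3528851570231317144449695559251734432500000000000),6,0⟩,⟨682921319792402549436144024636599334763500000000,7,0⟩,⟨2091522233091986539620110829936311667060691338750,8,0⟩,⟨632161229080324872252334835469452368800753717147,9,0⟩]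

/-- Certificate tree. -/
def tpl4 : OutT := (A (A (A (O l) (O l)) (A (O l) (A (O l) (A (O l) (O l))))) (A (A (A (A (A (O l) (O l)) (A (O l) (A (O l) (O l)))) (A (A (A (O l) (O l)) (A (O l) (O l))) (A (O l) (O l)))) (A (A (A (O l) (O l)) (O l)) (A (O l) (O l)))) (A (A (O l) (O l)) (A (O l) (A (O l) (A (O l) (A (O l) (A (O l) (O l)))))))))

theorem hpl4 (x : ℝ) (h0 : 0 ≤ x) (h1 : x ≤ 1) : evalIL lpl4 x 0 ≤ 0 :=
  uni_le 9 65536 lpl4 (by norm_num) (by norm_num) (by decide +kernel)
    (chkOut_sound (uniPb 9 65536 lpl4) tpl4 0 32768 0 32768 (by decide +kernel)) x h0 h1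

/-- Certificate polynomial. -/
def lnu4 : List ITm := [⟨(-4874923984375000000000000000000000000000000000000),0,0⟩,⟨(-17291314169521875000000000000000000000000000000000),1,0⟩,⟨17735362237330133484375000000000000000000000000000,2,0⟩,⟨68575108200939728290330312500000000000000000000000,3,0⟩,⟨(-56464006022751405281503297577343750000000000000000),4,0⟩,⟨(-37049126674439678121799185208086000000000000000000),5,0⟩,⟨28230812561850537155597564474013875460000000000000,6,0⟩,⟨2731685279169610197744576098546397339054000000000,7,0⟩,⟨(-4183044466183973079240221659872623334121382677500),8,0⟩,⟨632161229080324872252334835469452368800753717147,9,0⟩]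

/-- Certificate tree. -/
def tnu4 : OutT := (A (A (O l) (O l)) (A (A (O l) (A (O l) (A (O l) (O l)))) (A (A (A (O l) (A (O l) (O l))) (A (A (A (O l) (O l)) (A (O l) (O l))) (A (A (O l) (O l)) (A (O l) (O l))))) (A (A (A (O l) (O l)) (A (O l) (O l))) (A (O l) (O l))))))

theorem hnu4 (x : ℝ) (h0 : 0 ≤ x) (h1 : x ≤ 1) : evalIL lnu4 x 0 ≤ 0 :=
  uni_le 9 65536 lnu4 (by norm_num) (by norm_num) (by decide +kernel)
    (chkOut_sound (uniPb 9 65536 lnu4) tnu4 0 32768 0 32768 (by decide +kernel)) x h0 h1

/-- Certificate polynomial. -/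
def lnl4 : List ITm := [⟨(-6982113984375000000000000000000000000000000000000),0,0⟩,⟨34412402714878125000000000000000000000000000000000,1,0⟩,⟨(-27006174868312362515625000000000000000000000000000),2,0⟩,⟨(-66343994433167545051669687500000000000000000000000),3,0⟩,⟨56262653582994385174672272822656250000000000000000,4,0⟩,⟨37049126674439678121799185208086000000000000000000,5,0⟩,⟨(-28230812561850537155597564474013875460000000000000),6,0⟩,⟨(-2731685279169610197744576098546397339054000000000),7,0⟩,⟨4183044466183973079240221659872623334121382677500,8,0⟩,⟨(-632161229080324872252334835469452368800753717147),9,0⟩]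

/-- Certificate tree. -/
def tnl4 : OutT := (A (A (A (O l) (O l)) (A (A (O l) (A (O l) (O l))) (A (A (O l) (O l)) (A (O l) (O l))))) (A (A (A (O l) (O l)) (A (O l) (O l))) (A (A (O l) (O l)) (A (O l) (A (O l) (A (O l) (A (O l) (A (O l) (O l)))))))))

theorem hnl4 (x : ℝ) (h0 : 0 ≤ x) (h1 : x ≤ 1) : evalIL lnl4 x 0 ≤ 0 :=
  uni_le 9 65536 lnl4 (by norm_num) (by norm_num) (by decide +kernel)
    (chkOut_sound (uniPb 9 65536 lnl4) tnl4 0 32768 0 32768 (by decide +kernel)) x h0 h1

theorem apx4 (u : ℝ) (h0 : -(36099 / 100000 : ℝ) ≤ u) (h1 : u ≤ 2 * (36099 / 100000 : ℝ)) :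
    |((1 + u)⁻¹) ^ 4 - evalZ Ax.p4 (3 * u) / Ax.D4| ≤ Ax.e4 * |u| ^ Ax.m4 := by
  have hu : 0 < 1 + u := by norm_num at h0 ⊢; linarith
  refine apx_of_S 4 2 _ (S4 u) _ u hu ?_ ?_ ?_
  · simp only [Ax, evalZ_cons, evalZ_nil, S4]
    push_cast
    ring
  · rcases le_total 0 u with hs | hs
    · have hx := hpu4 (u / (2 * (36099 / 100000 : ℝ))) (by positivity) (by rw [div_le_one (by norm_num)]; exact h1)
      have e : evalIL lpu4 (u / (2 * (36099 / 100000 : ℝ))) 0 = 163840000000000000000000000000000000000000000000 * (S4 u - Ax.e4 * (1 + u) ^ 4) := by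
        simp only [lpu4, evalIL, List.map_cons, List.map_nil, List.sum_cons, List.sum_nil, S4, Ax]
        push_cast
        ring
      rw [e] at hx
      have := cmul_nonpos (by norm_num) hx
      simp only [Ax] at this ⊢
      linarith
    · have hx := hnu4 (-u / (36099 / 100000 : ℝ)) (by apply div_nonneg <;> [linarith; norm_num]) (by rw [div_le_one (by norm_num)]; linarith)
      have e : evalIL lnu4 (-u / (36099 / 100000 : ℝ)) 0 = 83886080000000000000000000000000000000000000000000 * (S4 u - Ax.e4 * (1 + u) ^ 4) := by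
        simp only [lnu4, evalIL, List.map_cons, List.map_nil, List.sum_cons, List.sum_nil, S4, Ax]
        push_cast
        ring
      rw [e] at hx
      have := cmul_nonpos (by norm_num) hx
      simp only [Ax] at this ⊢
      linarith
  · rcases le_total 0 u with hs | hs
    · have hx := hpl4 (u / (2 * (36099 / 100000 : ℝ))) (by positivity) (by rw [div_le_one (by norm_num)]; exact h1)
      have e : evalIL lpl4 (u / (2 * (36099 / 100000 : ℝ))) 0 = 163840000000000000000000000000000000000000000000 * (-S4 u - Ax.e4 * (1 + u) ^ 4) := by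
        simp only [lpl4, evalIL, List.map_cons, List.map_nil, List.sum_cons, List.sum_nil, S4, Ax]
        push_cast
        ring
      rw [e] at hx
      have := cmul_nonpos (by norm_num) hx
      simp only [Ax] at this ⊢
      linarith
    · have hx := hnl4 (-u / (36099 / 100000 : ℝ)) (by apply div_nonneg <;> [linarith; norm_num]) (by rw [div_le_one (by norm_num)]; linarith)
      have e : evalIL lnl4 (-u / (36099 / 100000 : ℝ)) 0 = 83886080000000000000000000000000000000000000000000 * (-S4 u - Ax.e4 * (1 + u) ^ 4) := by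
        simp only [lnl4, evalIL, List.map_cons, List.map_nil, List.sum_cons, List.sum_nil, S4, Ax]
        push_cast
        ring
      rw [e] at hx
      have := cmul_nonpos (by norm_num) hx
      simp only [Ax] at this ⊢
      linarith

/-- The quotient polynomial for `j = 5`. -/
noncomputable def S5 (u : ℝ) : ℝ :=
  (833059 / 16777216 : ℝ) * u ^ 0 + (22587165 / 8388608 : ℝ) * u ^ 1 + (136534417 / 16777216 : ℝ) * u ^ 2 + (-815089617 / 16777216 : ℝ) * u ^ 3 + (-1401481965 / 8388608 : ℝ) * u ^ 4 + (1005907627 / 8388608 : ℝ) * u ^ 5 + (11230290705 / 16777216 : ℝ) * u ^ 6 + (4914106507 / 16777216 : ℝ) * u ^ 7 + (-10935166883 / 16777216 : ℝ) * u ^ 8 + (-5983679725 / 8388608 : ℝ) * u ^ 9 + (-432207195 / 2097152 : ℝ) * u ^ 10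

/-- Certificate polynomial. -/
def lpu5 : List ITm := [⟨(-6890659904479980468750000000000000000000000000000000),0,0⟩,⟨47409838181179046630859375000000000000000000000000000,1,0⟩,⟨127233696868318301055908203125000000000000000000000000,2,0⟩,⟨(-782481039470399010780335083007812500000000000000000000),3,0⟩,⟨(-1871461739141359580244704302825927734375000000000000000),4,0⟩,⟨961754334437766863097168449457584838867187500000000000,5,0⟩,⟨3883131098363607895766217439157709016406250000000000000,6,0⟩,⟨1226763332638232213333562215400352838569978125000000000,7,0⟩,⟨(-1970910049611837783322568786261083669793462280187500000),8,0⟩,⟨(-1557273493281582035805002870666494387140916094931937500),9,0⟩,⟨(-324843141803369836137344723182419368174515610010512439),10,0⟩]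

/-- Certificate tree. -/
def tpu5 : OutT := (A (A (A (A (O l) (O l)) (A (A (O l) (A (O l) (O l))) (A (O l) (O l)))) (A (A (O l) (O l)) (A (O l) (O l)))) (A (A (O l) (A (O l) (O l))) (A (A (A (O l) (O l)) (A (A (O l) (O l)) (A (A (O l) (O l)) (A (O l) (O l))))) (A (A (A (A (O l) (O l)) (A (O l) (O l))) (A (A (O l) (O l)) (O l))) (A (A (O l) (O l)) (O l))))))

theorem hpu5 (x : ℝ) (h0 : 0 ≤ x) (h1 : x ≤ 1) : evalIL lpu5 x 0 ≤ 0 :=
  uni_le 10 65536 lpu5 (by norm_num) (by norm_num) (by decide +kernel)
    (chkOut_sound (uniPb 10 65536 lpu5) tpu5 0 32768 0 32768 (by decide +kernel)) x h0 h1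

/-- Certificate polynomial. -/
def lpl5 : List ITm := [⟨(-10958330802917480468750000000000000000000000000000000),0,0⟩,⟨(-111842909735813140869140625000000000000000000000000000),1,0⟩,⟨(-220272474870347747772216796875000000000000000000000000),2,0⟩,⟨715308902528493790840094604492187500000000000000000000,3,0⟩,⟨1847213269426701214898476892486572265625000000000000000,4,0⟩,⟨(-965255716470684672419702302600946411132812500000000000),5,0⟩,⟨(-3883131098363607895766217439157709016406250000000000000),6,0⟩,⟨(-1226763332638232213333562215400352838569978125000000000),7,0⟩,⟨1970910049611837783322568786261083669793462280187500000,8,0⟩,⟨1557273493281582035805002870666494387140916094931937500,9,0⟩,⟨324843141803369836137344723182419368174515610010512439,10,0⟩]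

/-- Certificate tree. -/
def tpl5 : OutT := (A (A (A (O l) (O l)) (A (O l) (A (O l) (A (O l) (O l))))) (A (A (A (A (A (O l) (O l)) (A (O l) (A (O l) (O l)))) (A (A (A (O l) (O l)) (A (O l) (O l))) (A (O l) (O l)))) (A (A (O l) (O l)) (A (O l) (O l)))) (A (A (O l) (O l)) (A (O l) (A (O l) (A (O l) (A (O l) (A (O l) (O l)))))))))

theorem hpl5 (x : ℝ) (h0 : 0 ≤ x) (h1 : x ≤ 1) : evalIL lpl5 x 0 ≤ 0 :=
  uni_le 10 65536 lpl5 (by norm_num) (by norm_num) (by decide +kernel)
    (chkOut_sound (uniPb 10 65536 lpl5) tpl5 0 32768 0 32768 (by decide +kernel)) x h0 h1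

/-- Certificate polynomial. -/
def lnu5 : List ITm := [⟨(-7056035742187500000000000000000000000000000000000000000),0,0⟩,⟨(-24273837148763671875000000000000000000000000000000000000),1,0⟩,⟨32571826398289485070312500000000000000000000000000000000,2,0⟩,⟨100157573052211073379882890625000000000000000000000000000,3,0⟩,⟨(-119773551305047013135661075380859375000000000000000000000),4,0⟩,⟨(-30776138702008539619109390382642714843750000000000000000),5,0⟩,⟨62130097573817726332259479026523344262500000000000000000,6,0⟩,⟨(-9814106661105857706668497723202822708559825000000000000),7,0⟩,⟨(-7883640198447351133290275145044334679173849120750000000),8,0⟩,⟨3114546986563164071610005741332988774281832189863875000,9,0⟩,⟨(-324843141803369836137344723182419368174515610010512439),10,0⟩]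

/-- Certificate tree. -/
def tnu5 : OutT := (A (A (O l) (O l)) (A (A (O l) (A (O l) (A (O l) (O l)))) (A (A (A (O l) (A (O l) (O l))) (A (A (A (O l) (O l)) (A (O l) (O l))) (A (A (O l) (O l)) (A (O l) (O l))))) (A (A (A (A (O l) (O l)) (O l)) (A (O l) (O l))) (A (O l) (O l))))))

theorem hnu5 (x : ℝ) (h0 : 0 ≤ x) (h1 : x ≤ 1) : evalIL lnu5 x 0 ≤ 0 :=
  uni_le 10 65536 lnu5 (by norm_num) (by norm_num) (by decide +kernel)
    (chkOut_sound (uniPb 10 65536 lnu5) tnu5 0 32768 0 32768 (by decide +kernel)) x h0 h1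

/-- Certificate polynomial. -/
def lnl5 : List ITm := [⟨(-11221330742187500000000000000000000000000000000000000000),0,0⟩,⟨57263569784736328125000000000000000000000000000000000000,1,0⟩,⟨(-56389753566809023429687500000000000000000000000000000000),2,0⟩,⟨(-91559539523647205227532109375000000000000000000000000000),3,0⟩,⟨118221649243308877753502521119140625000000000000000000000,4,0⟩,⟨30888182927061909517430473683230285156250000000000000000,5,0⟩,⟨(-62130097573817726332259479026523344262500000000000000000),6,0⟩,⟨9814106661105857706668497723202822708559825000000000000,7,0⟩,⟨7883640198447351133290275145044334679173849120750000000,8,0⟩,⟨(-3114546986563164071610005741332988774281832189863875000),9,0⟩,⟨324843141803369836137344723182419368174515610010512439,10,0⟩]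

/-- Certificate tree. -/
def tnl5 : OutT := (A (A (A (O l) (O l)) (A (A (O l) (A (O l) (O l))) (A (A (O l) (A (O l) (O l))) (A (O l) (O l))))) (A (A (A (O l) (O l)) (A (O l) (O l))) (A (A (O l) (O l)) (A (A (O l) (O l)) (A (O l) (A (O l) (A (O l) (A (O l) (O l)))))))))

theorem hnl5 (x : ℝ) (h0 : 0 ≤ x) (h1 : x ≤ 1) : evalIL lnl5 x 0 ≤ 0 :=
  uni_le 10 65536 lnl5 (by norm_num) (by norm_num) (by decide +kernel)
    (chkOut_sound (uniPb 10 65536 lnl5) tnl5 0 32768 0 32768 (by decide +kernel)) x h0 h1

theorem apx5 (u : ℝ) (h0 : -(36099 / 100000 : ℝ) ≤ u) (h1 : u ≤ 2 * (36099 / 100000 : ℝ)) :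
    |((1 + u)⁻¹) ^ 5 - evalZ Ax.p5 (3 * u) / Ax.D5| ≤ Ax.e5 * |u| ^ Ax.m5 := by
  have hu : 0 < 1 + u := by norm_num at h0 ⊢; linarith
  refine apx_of_S 5 2 _ (S5 u) _ u hu ?_ ?_ ?_
  · simp only [Ax, evalZ_cons, evalZ_nil, S5]
    push_cast
    ring
  · rcases le_total 0 u with hs | hs
    · have hx := hpu5 (u / (2 * (36099 / 100000 : ℝ))) (by positivity) (by rw [div_le_one (by norm_num)]; exact h1)
      have e : evalIL lpu5 (u / (2 * (36099 / 100000 : ℝ))) 0 = 40960000000000000000000000000000000000000000000000000 * (S5 u - Ax.e5 * (1 + u) ^ 5) := by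
        simp only [lpu5, evalIL, List.map_cons, List.map_nil, List.sum_cons, List.sum_nil, S5, Ax]
        push_cast
        ring
      rw [e] at hx
      have := cmul_nonpos (by norm_num) hx
      simp only [Ax] at this ⊢
      linarith
    · have hx := hnu5 (-u / (36099 / 100000 : ℝ)) (by apply div_nonneg <;> [linarith; norm_num]) (by rw [div_le_one (by norm_num)]; linarith)
      have e : evalIL lnu5 (-u / (36099 / 100000 : ℝ)) 0 = 41943040000000000000000000000000000000000000000000000000 * (S5 u - Ax.e5 * (1 + u) ^ 5) := by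
        simp only [lnu5, evalIL, List.map_cons, List.map_nil, List.sum_cons, List.sum_nil, S5, Ax]
        push_cast
        ring
      rw [e] at hx
      have := cmul_nonpos (by norm_num) hx
      simp only [Ax] at this ⊢
      linarith
  · rcases le_total 0 u with hs | hs
    · have hx := hpl5 (u / (2 * (36099 / 100000 : ℝ))) (by positivity) (by rw [div_le_one (by norm_num)]; exact h1)
      have e : evalIL lpl5 (u / (2 * (36099 / 100000 : ℝ))) 0 = 40960000000000000000000000000000000000000000000000000 * (-S5 u - Ax.e5 * (1 + u) ^ 5) := by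
        simp only [lpl5, evalIL, List.map_cons, List.map_nil, List.sum_cons, List.sum_nil, S5, Ax]
        push_cast
        ring
      rw [e] at hx
      have := cmul_nonpos (by norm_num) hx
      simp only [Ax] at this ⊢
      linarith
    · have hx := hnl5 (-u / (36099 / 100000 : ℝ)) (by apply div_nonneg <;> [linarith; norm_num]) (by rw [div_le_one (by norm_num)]; linarith)
      have e : evalIL lnl5 (-u / (36099 / 100000 : ℝ)) 0 = 41943040000000000000000000000000000000000000000000000000 * (-S5 u - Ax.e5 * (1 + u) ^ 5) := by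
        simp only [lnl5, evalIL, List.map_cons, List.map_nil, List.sum_cons, List.sum_nil, S5, Ax]
        push_cast
        ring
      rw [e] at hx
      have := cmul_nonpos (by norm_num) hx
      simp only [Ax] at this ⊢
      linarith

theorem hAx : Ax.OK (-(36099 / 100000 : ℝ)) (2 * (36099 / 100000 : ℝ)) where
  e10 := by simp only [Ax]; norm_num
  e20 := by simp only [Ax]; norm_num
  e30 := by simp only [Ax]; norm_num
  e40 := by simp only [Ax]; norm_num
  e50 := by simp only [Ax]; norm_num
  h1 := fun u a b => by simpa using apx1 u a b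
  h2 := apx2
  h3 := apx3
  h4 := apx4
  h5 := apx5

end Vale.Agent.P154.D7.K2
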