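import Vale.Agent.P154.D7.K2.Data
import Vale.Agent.P154.Check2

namespace Vale.Agent.P154.D7.K2

open Cert

/-- Chart (0, 0). -/
def P00 : Pb := chartPb false false Nd w G []

/-- Chart (0, 1). -/
def P01 : Pb := chartPb false true Nd w G []

/-- Chart (1, 0). -/
def P10 : Pb := chartPb true false Nd w G []

/-- Chart (1, 1). -/
def P11 : Pb := chartPb true true Nd w G []

/-- The offset. -/
def KK : ℕ := 159667224762777584932509817042947085285396100834836603320203779394976951349517125262796637239410856087147395747535399619517795039071487492859133743862786513625600453836086854121403017715549038974612268539563513919466464836409669631111108421475843532600569672550060483331388679618427520794230784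

end Vale.Agent.P154.D7.K2
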